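import Vale.Agent.Lib.P037.Params

open Finset

namespace Vale.Agent.Results.P037.DiagonalRemoval

open Vale.Agent.Lib.P037

open scoped Classical in
/-- The ordered copies of a `k × k` binary pattern `H` in an `n × n` binary matrix `A`:
pairs `(r, c)` of strictly increasing index maps with `A (r i) (c j) = H i j` for all `i, j`. -/
noncomputable def copies {k n : ℕ} (H : Fin k → Fin k → Bool) (A : Fin n → Fin n → Bool) :
    Finset ((Fin k → Fin n) × (Fin k → Fin n)) :=
  univ.filter (fun p => StrictMono p.1 ∧ StrictMono p.2 ∧ ∀ i j, A (p.1 i) (p.2 j) = H i j)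

/-- `N_H(A)`: the number of ordered copies of `H` in `A`. -/
noncomputable def countCopies {k n : ℕ} (H : Fin k → Fin k → Bool)
    (A : Fin n → Fin n → Bool) : ℕ :=
  (copies H A).card

/-- The number of entries in which two matrices differ. -/
def diffCount {n : ℕ} (A B : Fin n → Fin n → Bool) : ℕ :=
  (univ.filter (fun q : Fin n × Fin n => A q.1 q.2 ≠ B q.1 q.2)).card

/-- `dist_H(A)`: the least, over `H`-free `B`, of the fraction of entries where `A`, `B` differ. -/
noncomputable def distH {k n : ℕ} (H : Fin k → Fin k → Bool) (A : Fin n → Fin n → Bool) : ℝ :=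
  sInf {d : ℝ | ∃ B : Fin n → Fin n → Bool, countCopies H B = 0 ∧
    d = (diffCount A B : ℝ) / (n : ℝ) ^ 2}

/-- The pattern `[[1,0],[0,1]]`. -/
def diagPat : Fin 2 → Fin 2 → Bool := ![![true, false], ![false, true]]

/-- The pattern `[[0,1],[1,0]]`. -/
def antidiagPat : Fin 2 → Fin 2 → Bool := ![![false, true], ![true, false]]

theorem far_elim {k n : ℕ} {H : Fin k → Fin k → Bool} {A : Fin n → Fin n → Bool} {ε : ℝ}
    (hn : 0 < n) (hfar : ε ≤ distH H A) (B : Fin n → Fin n → Bool)
    (hB : countCopies H B = 0) : ε * ((n : ℝ) * n) ≤ (diffCount A B : ℝ) := by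
  have hnR : (0 : ℝ) < (n : ℝ) := by exact_mod_cast hn
  have h1 : distH H A ≤ (diffCount A B : ℝ) / (n : ℝ) ^ 2 := by
    apply csInf_le
    · refine ⟨0, ?_⟩
      rintro d ⟨B', _, rfl⟩
      positivity
    · exact ⟨B, hB, rfl⟩
  have h2 := hfar.trans h1
  rw [le_div_iff₀ (by positivity)] at h2
  nlinarith

theorem NN_le_countCopies {n : ℕ} (A : Fin n → Fin n → Bool) :
    NN A ≤ countCopies diagPat A := by
  classical
  have h1 : NN A = ((univ : Finset ((Fin n × Fin n) × (Fin n × Fin n))).filter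
      (fun q => Pat A q.1.1 q.1.2 q.2.1 q.2.2)).card := by
    unfold NN copyR
    symm
    rw [Finset.card_filter]
    conv_lhs => rw [Fintype.sum_prod_type]
    apply Finset.sum_congr rfl
    intro p _
    rw [Finset.card_filter]
  rw [h1]
  unfold countCopies copies
  apply Finset.card_le_card_of_injOn
    (fun q => ((![q.1.1, q.1.2] : Fin 2 → Fin n), (![q.2.1, q.2.2] : Fin 2 → Fin n)))
  · intro q hq
    have hq' := (Finset.mem_filter.mp (Finset.mem_coe.mp hq)).2
    obtain ⟨h1, h2, e1, e2, e3, e4⟩ := hq'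
    apply Finset.mem_coe.mpr
    simp only [mem_filter, mem_univ, true_and]
    refine ⟨?_, ?_, ?_⟩
    · intro i j hij
      fin_cases i <;> fin_cases j <;> simp_all
    · intro i j hij
      fin_cases i <;> fin_cases j <;> simp_all
    · intro i j
      fin_cases i <;> fin_cases j <;> simp_all [diagPat]
  · intro q _ q' _ h
    have h1 := congrArg (fun x => x.1 0) h
    have h2 := congrArg (fun x => x.1 1) h
    have h3 := congrArg (fun x => x.2 0) h
    have h4 := congrArg (fun x => x.2 1) h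
    simp only [Matrix.cons_val_zero, Matrix.cons_val_one] at h1 h2 h3 h4
    exact Prod.ext (Prod.ext h1 h2) (Prod.ext h3 h4)

theorem countCopies_eq_zero {n : ℕ} (B : Fin n → Fin n → Bool)
    (hB : ∀ r1 r2 c1 c2, ¬ Pat B r1 r2 c1 c2) : countCopies diagPat B = 0 := by
  classical
  unfold countCopies copies
  apply Finset.card_eq_zero.mpr
  apply Finset.filter_eq_empty_iff.mpr
  rintro p _ ⟨h1, h2, h3⟩
  apply hB (p.1 0) (p.1 1) (p.2 0) (p.2 1)
  refine ⟨h1 (by simp), h2 (by simp), ?_, ?_, ?_, ?_⟩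
  · rw [h3]; rfl
  · rw [h3]; rfl
  · rw [h3]; rfl
  · rw [h3]; rfl

/-- The main estimate for the pattern `[[1,0],[0,1]]`. -/
theorem main_diag {n : ℕ} (hn : 0 < n) {ε : ℝ} (h0 : 0 < ε) (h1 : ε < 1)
    (A : Fin n → Fin n → Bool)
    (hfar : ∀ B : Fin n → Fin n → Bool, countCopies diagPat B = 0 →
      ε * ((n : ℝ) * n) ≤ (diffCount A B : ℝ)) :
    (ε / 14) ^ 234 * (n : ℝ) ^ (2 * 2) ≤ (countCopies diagPat A : ℝ) := by
  have hnR : (0 : ℝ) < (n : ℝ) := by exact_mod_cast hn
  have hnn : (0 : ℝ) < (n : ℝ) * n := by positivity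
  -- the copy count is positive
  have hN1 : 1 ≤ NN A := by
    by_contra hcon
    have hzero : NN A = 0 := by omega
    have hfree : ∀ r1 r2 c1 c2, ¬ Pat A r1 r2 c1 c2 := by
      intro r1 r2 c1 c2 hp
      have h2 : copyR A r1 r2 = 0 := by
        have := (Finset.sum_eq_zero_iff.mp hzero) (r1, r2) (Finset.mem_univ _)
        exact this
      unfold copyR at h2
      have h3 := Finset.card_eq_zero.mp h2
      have h4 : (c1, c2) ∈ (univ : Finset (Fin n × Fin n)).filter
          (fun c => Pat A r1 r2 c.1 c.2) := by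
        simp only [mem_filter, mem_univ, true_and]
        exact hp
      rw [h3] at h4
      simp at h4
    have h2 := hfar A (countCopies_eq_zero A hfree)
    have h3 : diffCount A A = 0 := by
      unfold diffCount
      simp
    rw [h3] at h2
    have h4 : 0 < ε * ((n : ℝ) * n) := by positivity
    simp at h2
    linarith
  -- the parameter
  set K : ℕ := ⌈13 / ε⌉₊ with hK
  have hK1 : 13 / ε ≤ (K : ℝ) := Nat.le_ceil _
  have hK2 : (K : ℝ) < 13 / ε + 1 := Nat.ceil_lt_add_one (by positivity)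
  have h13 : (13 : ℝ) < 13 / ε := by
    rw [lt_div_iff₀ h0]
    linarith
  have hK14 : 14 ≤ K := by
    have : (13 : ℝ) < (K : ℝ) := by linarith
    have h5 : 13 < K := by exact_mod_cast this
    omega
  have hK0R : (0 : ℝ) < (K : ℝ) := by linarith
  have hKε : (K : ℝ) ≤ 14 / ε := by
    have : 13 / ε + 1 ≤ 14 / ε := by
      have h5 : (14 : ℝ) / ε = 13 / ε + 1 / ε := by ring
      rw [h5]
      have h6 : (1 : ℝ) ≤ 1 / ε := by
        rw [le_div_iff₀ h0]
        linarith
      linarith
    linarith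
  have hNN := NN_le_countCopies A
  have hNNR : (NN A : ℝ) ≤ (countCopies diagPat A : ℝ) := by exact_mod_cast hNN
  have hmain : (n : ℝ) ^ 4 ≤ (NN A : ℝ) * (K : ℝ) ^ 234 := by
    by_contra hcon
    push Not at hcon
    obtain ⟨B, hBfree, hBham⟩ := main_core hn A K hK14 hcon hN1
    have h2 := hfar B (countCopies_eq_zero B hBfree)
    have h3 : (diffCount A B : ℝ) = (ham A B : ℝ) := rfl
    rw [h3] at h2
    have h4 := h2.trans hBham
    have h5 : 12 * ((n : ℝ) * n) / (K : ℝ) ≤ 12 * ((n : ℝ) * n) / (13 / ε) :=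
      div_le_div_of_nonneg_left (by positivity) (by positivity) hK1
    have h6 : 12 * ((n : ℝ) * n) / (13 / ε) = (12 / 13) * ε * ((n : ℝ) * n) := by
      field_simp
    have h7 : 0 < ε * ((n : ℝ) * n) := by positivity
    nlinarith
  have hεK : ε / 14 ≤ 1 / (K : ℝ) := by
    rw [div_le_div_iff₀ (by norm_num) hK0R]
    have : (K : ℝ) * ε ≤ 14 := by
      have h5 := mul_le_mul_of_nonneg_right hKε h0.le
      have h6 : 14 / ε * ε = 14 := by field_simp
      linarith
    linarith
  have hpow : (ε / 14) ^ 234 ≤ (1 / (K : ℝ)) ^ 234 :=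
    pow_le_pow_left₀ (by positivity) hεK _
  have hn4 : (n : ℝ) ^ (2 * 2) = (n : ℝ) ^ 4 := by norm_num
  rw [hn4]
  calc (ε / 14) ^ 234 * (n : ℝ) ^ 4 ≤ (1 / (K : ℝ)) ^ 234 * (n : ℝ) ^ 4 :=
        mul_le_mul_of_nonneg_right hpow (by positivity)
    _ ≤ (1 / (K : ℝ)) ^ 234 * ((NN A : ℝ) * (K : ℝ) ^ 234) :=
        mul_le_mul_of_nonneg_left hmain (by positivity)
    _ = (NN A : ℝ) := by
        field_simp
    _ ≤ _ := hNNR

/-- complement of a matrix -/
def compl' {n : ℕ} (A : Fin n → Fin n → Bool) : Fin n → Fin n → Bool := fun r c => !(A r c)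

theorem antidiag_eq_not (i j : Fin 2) : antidiagPat i j = !(diagPat i j) := by
  fin_cases i <;> fin_cases j <;> rfl

theorem count_compl {n : ℕ} (A : Fin n → Fin n → Bool) :
    countCopies antidiagPat A = countCopies diagPat (compl' A) := by
  have hset : copies antidiagPat A = copies diagPat (compl' A) := by
    ext p
    unfold copies
    rw [Finset.mem_filter, Finset.mem_filter]
    constructor
    · rintro ⟨_, h1, h2, h3⟩
      refine ⟨mem_univ _, h1, h2, ?_⟩
      intro i j
      show (!(A (p.1 i) (p.2 j))) = diagPat i j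
      rw [h3, antidiag_eq_not, Bool.not_not]
    · rintro ⟨_, h1, h2, h3⟩
      refine ⟨mem_univ _, h1, h2, ?_⟩
      intro i j
      have h4 := h3 i j
      rw [antidiag_eq_not, ← h4]
      simp [compl']
  unfold countCopies
  rw [hset]

theorem compl_compl {n : ℕ} (A : Fin n → Fin n → Bool) : compl' (compl' A) = A := by
  funext r c
  simp [compl']

theorem diff_compl {n : ℕ} (A B : Fin n → Fin n → Bool) :
    diffCount (compl' A) B = diffCount A (compl' B) := by
  unfold diffCount compl'
  congr 1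
  ext q
  simp only [mem_filter, mem_univ, true_and]
  cases A q.1 q.2 <;> cases B q.1 q.2 <;> simp

/-- Polynomial removal for the two diagonal `2 × 2` patterns, with explicit constants. -/
theorem result (H : Fin 2 → Fin 2 → Bool) (hH : H = diagPat ∨ H = antidiagPat) (n : ℕ) (hn : 1 ≤ n)
    (ε : ℝ) (h0 : 0 < ε) (h1 : ε < 1) (A : Fin n → Fin n → Bool) (hfar : ε ≤ distH H A) :
    (1 / 14 : ℝ) ^ 234 * ε ^ 234 * (n : ℝ) ^ (2 * 2) ≤ (countCopies H A : ℝ) := by
  have hn' : 0 < n := hn
  have e : (1 / 14 : ℝ) ^ 234 * ε ^ 234 = (ε / 14) ^ 234 := by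
    rw [← mul_pow]
    congr 1
    ring
  rw [e]
  rcases hH with rfl | rfl
  · exact main_diag hn' h0 h1 A (fun B hB => far_elim hn' hfar B hB)
  · rw [count_compl]
    apply main_diag hn' h0 h1
    intro B hB
    rw [diff_compl]
    apply far_elim hn' hfar
    rw [count_compl, compl_compl]
    exact hB

end Vale.Agent.Results.P037.DiagonalRemoval
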