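import Vale.Agent.Lib.P037E.EqualRows
import Vale.Agent.Results.P037.DiagonalRemoval

open Finset

namespace Vale.Agent.Results.P037.AllTwoByTwo

open Vale.Agent.Lib.P037E

theorem classify_all (H : Fin 2 → Fin 2 → Bool) :
    ((univ.filter (fun p : Fin 2 × Fin 2 => H p.1 p.2 = true)).card = 1 ∨
      (univ.filter (fun p : Fin 2 × Fin 2 => H p.1 p.2 = true)).card = 3) ∨
    (H 0 0 = H 1 0 ∧ H 0 1 = H 1 1) ∨ (H 0 0 = H 0 1 ∧ H 1 0 = H 1 1) ∨
    H = Vale.Agent.Results.P037.DiagonalRemoval.diagPat ∨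
    H = Vale.Agent.Results.P037.DiagonalRemoval.antidiagPat := by
  revert H
  decide

theorem bound_of_good {a b : ℕ} (ha : a ≤ 234) (hab : a + b ≤ 702) {H : Fin 2 → Fin 2 → Bool}
    (h : Good a b H) {n : ℕ} (hn : 0 < n) {ε : ℝ} (h0 : 0 < ε) (h1 : ε < 1)
    (A : Fin n → Fin n → Bool) (hfar : ε ≤ distH H A) :
    (1 / 14 : ℝ) ^ 234 * ε ^ 234 * (n : ℝ) ^ 4 ≤ (countCopies H A : ℝ) := by
  refine le_trans ?_ (real_form h hn h0 h1 A hfar)
  apply mul_le_mul_of_nonneg_right _ (by positivity)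
  apply mul_le_mul _ _ (by positivity) (by positivity)
  · have h2 : (1 / 14 : ℝ) ^ 234 ≤ (1 / 8 : ℝ) ^ 234 :=
      pow_le_pow_left₀ (by norm_num) (by norm_num) _
    have h3 : (1 / 8 : ℝ) ^ 234 = (1 / 2 : ℝ) ^ 702 := by
      rw [show (702 : ℕ) = 3 * 234 by norm_num, pow_mul]
      norm_num
    rw [h3] at h2
    exact h2.trans (pow_le_pow_of_le_one (by norm_num) (by norm_num) hab)
  · exact pow_le_pow_of_le_one h0.le h1.le ha

/-- Polynomial removal for every `2 × 2` binary pattern: `dist_H(A) ≥ ε` implies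
`N_H(A) ≥ 14^(-234) ε^234 n^4`. -/
theorem result (H : Fin 2 → Fin 2 → Bool) {n : ℕ} (hn : 0 < n) {ε : ℝ} (h0 : 0 < ε) (h1 : ε < 1)
    (A : Fin n → Fin n → Bool) (hfar : ε ≤ distH H A) :
    (1 / 14 : ℝ) ^ 234 * ε ^ 234 * (n : ℝ) ^ 4 ≤ (countCopies H A : ℝ) := by
  rcases classify_all H with h | h | h | h
  · exact bound_of_good (by norm_num) (by norm_num) (good_odd H h) hn h0 h1 A hfar
  · exact bound_of_good (by norm_num) (by norm_num) (good_rest H (Or.inl h)) hn h0 h1 A hfar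
  · exact bound_of_good (by norm_num) (by norm_num) (good_rest H (Or.inr h)) hn h0 h1 A hfar
  · have := Vale.Agent.Results.P037.DiagonalRemoval.result H (by tauto) n hn ε h0 h1 A hfar
    have e : Vale.Agent.Results.P037.DiagonalRemoval.countCopies H A = countCopies H A := rfl
    rw [e] at this
    simpa using this

end Vale.Agent.Results.P037.AllTwoByTwo
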