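import Vale.Agent.Lib.P037.Blow.Main

namespace Vale.Agent.Results.P037.BlockPatterns

open Vale.Agent.Results.P037.DiagonalRemoval

/-- Polynomial removal for every `k × k` binary pattern made of two row blocks and two column
blocks: the first `a` rows are equal, the last `k - a` rows are equal, the first `b` columns are
equal and the last `k - b` columns are equal. For `k = 2` this is every pattern. -/
theorem result {k a b : ℕ} (ha : 0 < a) (hak : a < k) (hb : 0 < b) (hbk : b < k)
    (M : Fin 2 → Fin 2 → Bool) (H : Fin k → Fin k → Bool)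
    (hH : ∀ i j, H i j = M (if i.val < a then 0 else 1) (if j.val < b then 0 else 1)) :
    ∃ (c : ℝ) (C : ℕ), 0 < c ∧ 0 < C ∧ ∀ (n : ℕ), 1 ≤ n → ∀ ε : ℝ, 0 < ε → ε < 1 →
      ∀ A : Fin n → Fin n → Bool, ε ≤ distH H A →
        c * ε ^ C * (n : ℝ) ^ (2 * k) ≤ (countCopies H A : ℝ) :=
  Vale.Agent.Lib.P037.Blow.blow_main ha hak hb hbk M H hH

end Vale.Agent.Results.P037.BlockPatterns
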