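import Vale.Agent.Lib.P037E.Final

open Finset

namespace Vale.Agent.Results.P037.OneOrThreeOnes

open Vale.Agent.Lib.P037E

/-- Polynomial removal for every `2 × 2` binary pattern with exactly one or exactly three ones:
`dist_H(A) ≥ ε` implies `N_H(A) ≥ 2^(-523) ε^75 n^4`. -/
theorem result {n : ℕ} (hn : 0 < n) {ε : ℝ} (h0 : 0 < ε) (h1 : ε < 1)
    (H : Fin 2 → Fin 2 → Bool)
    (hH : (univ.filter (fun p : Fin 2 × Fin 2 => H p.1 p.2 = true)).card = 1 ∨
      (univ.filter (fun p : Fin 2 × Fin 2 => H p.1 p.2 = true)).card = 3)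
    (A : Fin n → Fin n → Bool) (hfar : ε ≤ distH H A) :
    (1 / 2 : ℝ) ^ 523 * ε ^ 75 * (n : ℝ) ^ 4 ≤ (countCopies H A : ℝ) :=
  real_form (good_odd H hH) hn h0 h1 A hfar

end Vale.Agent.Results.P037.OneOrThreeOnes
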